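import Vale.Agent.Lib.P154Q.Child.Data

/-!
The data of one certificate.
-/

namespace Vale.Agent.Lib.P154Q.Nptop

open Vale.Agent.Lib.P154M Vale.Agent.Lib.P154Q
open Vale.Agent.Lib.Common.Kron Vale.Agent.Lib.Common.Kron.PE

/-- Coefficients. -/
def G0L : L2 := [(-1789673, 4, 1), (92805891, 1, 3), (838893, 5, 0), (-103533812, 2, 2), (22814983, 3, 1), (230164785, 0, 3), (-2026579, 4, 0), (10734508, 1, 2), (-21567973, 2, 1), (3223753, 3, 0), (-21714830, 0, 2), (-3786148, 1, 1), (13266598, 2, 0), (219000000, 1, 0)]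

/-- Coefficients. -/
def G1L : L2 := [(-7020806, 4, 1), (-400773927, 1, 3), (1839194, 5, 0), (188211528, 2, 2), (29372182, 3, 1), (613458765, 0, 3), (-9666797, 4, 0), (-424408713, 1, 2), (-28672380, 2, 1), (11040080, 3, 0), (130166213, 0, 2), (2074142, 1, 1), (9545976, 2, 0), (13358520, 0, 1), (200553600, 1, 0)]

/-- The certificate. -/
def D : NetD where
  ML := [⟨4, 1, -1789673, -7020806⟩,
    ⟨1, 3, 92805891, -400773927⟩,
    ⟨5, 0, 838893, 1839194⟩,
    ⟨2, 2, -103533812, 188211528⟩,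
    ⟨3, 1, 22814983, 29372182⟩,
    ⟨0, 3, 230164785, 613458765⟩,
    ⟨4, 0, -2026579, -9666797⟩,
    ⟨1, 2, 10734508, -424408713⟩,
    ⟨2, 1, -21567973, -28672380⟩,
    ⟨3, 0, 3223753, 11040080⟩,
    ⟨0, 2, -21714830, 130166213⟩,
    ⟨1, 1, -3786148, 2074142⟩,
    ⟨2, 0, 13266598, 9545976⟩,
    ⟨0, 1, 0, 13358520⟩,
    ⟨1, 0, 219000000, 200553600⟩]
  G0 := G0L
  G1 := G1L
  UB := Child.UBL
  UD := Child.UDL
  LA := Child.LAL
  PB := [114032640000, -40229928960, -8451932160, 10063800320, -3863661760, 1454429760]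
  PD := [105381888000, -183049912320, 107648778240, -36663459840, 8702760960, -1371271680]
  ZZ := [157286400000, -155115847680, 47579136000]
  KK := [0, 0, 3180871680, 25376747520, -20406270400, 2533724960, -387437401, -68441493]
  gd := Child.gdC
  DW := 157286400000
  T1 := 12233386666666666
  wn := 7
  wd := 100
  bn0 := 725000
  dn0 := 670000
  bn1 := 751502
  dn1 := 623709
  den := 1000000
  Na := 11
  Nc := Child.NcC

/-- The interval of the parameter. -/
def mC : Iv := ⟨4955, 5000, 10000⟩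

end Vale.Agent.Lib.P154Q.Nptop
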